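import Mathlib

/-!
# P181: the numbers of the almost all version
-/

namespace Vale.Agent.P181.H142

open Filter Real

theorem ev_log : ∀ᶠ a : ℕ in atTop, (2:ℝ) ≤ Real.log a :=
  (tendsto_log_atTop.comp tendsto_natCast_atTop_atTop).eventually_ge_atTop 2

theorem ev_pow : ∀ᶠ a : ℕ in atTop,
    (10:ℝ)^6 * (21 * Real.log a)^13 * Real.log a ≤ (a:ℝ)^((1:ℝ)/7) := by
  have h := (isLittleO_log_rpow_rpow_atTop (14:ℝ) (show (0:ℝ) < 1/7 by norm_num))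
  have h2 := h.def (show (0:ℝ) < 1 / ((10:ℝ)^6 * 21^13) by positivity)
  have h3 := tendsto_natCast_atTop_atTop (R := ℝ) |>.eventually h2
  filter_upwards [h3, ev_log] with a ha hl
  have hl0 : 0 ≤ Real.log a := by linarith
  rw [Real.norm_of_nonneg (Real.rpow_nonneg hl0 _),
    Real.norm_of_nonneg (Real.rpow_nonneg (Nat.cast_nonneg _) _)] at ha
  have e : Real.log (a:ℝ) ^ (14:ℝ) = Real.log a ^ 14 := by
    rw [← Real.rpow_natCast]; norm_num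
  rw [e] at ha
  have hc : (0:ℝ) < (10:ℝ)^6 * 21^13 := by positivity
  have h5 : (10:ℝ)^6 * (21 * Real.log a)^13 * Real.log a
      = ((10:ℝ)^6 * 21^13) * Real.log a ^ 14 := by ring
  rw [h5]
  calc ((10:ℝ)^6 * 21^13) * Real.log a ^ 14
      ≤ ((10:ℝ)^6 * 21^13) * (1 / ((10:ℝ)^6 * 21^13) * (a:ℝ)^((1:ℝ)/7)) :=
        mul_le_mul_of_nonneg_left ha hc.le
    _ = (a:ℝ)^((1:ℝ)/7) := by field_simp

theorem ev_36 : ∀ᶠ a : ℕ in atTop, (36:ℝ) ≤ (a:ℝ)^((9:ℝ)/35) :=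
  ((tendsto_rpow_atTop (show (0:ℝ) < 9/35 by norm_num)).comp
    tendsto_natCast_atTop_atTop).eventually_ge_atTop 36

theorem num8 : ∀ᶠ a : ℕ in atTop, ∀ b : ℕ, 10^8 * (a:ℝ) * (Real.log a)^2 ≤ b →
    (b:ℝ) ≤ (a:ℝ)^((8:ℝ)/7) → ∃ s : ℕ, 1 ≤ s ∧ 43680*(s+1)^2 ≤ b / a ∧
    (10:ℝ)^6 * (s:ℝ)^13 * ((b / a : ℕ) : ℝ)^6 * Real.log a ≤ a ∧
    a * (a*b+17) ≤ 2^(s/4) := by
  filter_upwards [ev_log, ev_pow, ev_36, eventually_ge_atTop 1] with a hl hp h36 ha1 b hb1 hb2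
  set L := Real.log (a:ℝ) with hL
  have ha0 : (0:ℝ) < a := by exact_mod_cast ha1
  have hL0 : 0 < L := by linarith
  refine ⟨⌈20 * L⌉₊, ?_, ?_, ?_, ?_⟩
  · exact Nat.one_le_iff_ne_zero.2 (Nat.ceil_pos.2 (by linarith)).ne'
  · have hs : (⌈20 * L⌉₊ : ℝ) < 20 * L + 1 := Nat.ceil_lt_add_one (by linarith)
    have hs2 : ((⌈20 * L⌉₊ : ℝ) + 1) ≤ 21 * L := by linarith
    rw [Nat.le_div_iff_mul_le (by omega)]
    have h0 : (0:ℝ) ≤ (⌈20 * L⌉₊ : ℝ) + 1 := by positivity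
    have h1 : ((⌈20 * L⌉₊ : ℝ) + 1)^2 ≤ (21 * L)^2 := pow_le_pow_left₀ h0 hs2 2
    have h2 : (43680 : ℝ) * ((⌈20 * L⌉₊ : ℝ) + 1)^2 * a ≤ b := by
      calc (43680 : ℝ) * ((⌈20 * L⌉₊ : ℝ) + 1)^2 * a ≤ 43680 * (21 * L)^2 * a := by gcongr
        _ ≤ 10^8 * (a:ℝ) * L^2 := by nlinarith [mul_pos ha0 (pow_pos hL0 2)]
        _ ≤ b := hb1
    exact_mod_cast h2
  · have hs : (⌈20 * L⌉₊ : ℝ) ≤ 21 * L := by
      have := Nat.ceil_lt_add_one (a := 20 * L) (by linarith)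
      linarith
    have hq : ((b / a : ℕ) : ℝ) ≤ (a:ℝ)^((1:ℝ)/7) := by
      have h1 : ((b / a : ℕ) : ℝ) ≤ (b:ℝ) / a := Nat.cast_div_le
      have h2 : (b:ℝ) / a ≤ (a:ℝ)^((8:ℝ)/7) / a := by gcongr
      have h3 : (a:ℝ)^((8:ℝ)/7) / a = (a:ℝ)^((1:ℝ)/7) := by
        rw [show ((8:ℝ)/7) = 1/7 + 1 by norm_num, Real.rpow_add ha0, Real.rpow_one]
        field_simp
      linarith
    have hq6 : ((b / a : ℕ) : ℝ)^6 ≤ (a:ℝ)^((6:ℝ)/7) := by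
      calc ((b / a : ℕ) : ℝ)^6 ≤ ((a:ℝ)^((1:ℝ)/7))^6 := by gcongr
        _ = (a:ℝ)^((6:ℝ)/7) := by
          rw [← Real.rpow_natCast, ← Real.rpow_mul ha0.le]; norm_num
    calc (10:ℝ)^6 * (⌈20 * L⌉₊ : ℝ)^13 * ((b / a : ℕ) : ℝ)^6 * L
        ≤ (10:ℝ)^6 * (21 * L)^13 * (a:ℝ)^((6:ℝ)/7) * L := by gcongr
      _ = ((10:ℝ)^6 * (21 * L)^13 * L) * (a:ℝ)^((6:ℝ)/7) := by ring
      _ ≤ (a:ℝ)^((1:ℝ)/7) * (a:ℝ)^((6:ℝ)/7) := by gcongr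
      _ = a := by rw [← Real.rpow_add ha0]; norm_num
  · set s := ⌈20 * L⌉₊ with hs
    have h1 : 20 * L ≤ s := Nat.le_ceil _
    have h2 : (s:ℝ) / 4 - 1 ≤ ((s / 4 : ℕ) : ℝ) := by
      have h3 : s < 4 * (s / 4) + 4 := by omega
      have h4 : (s:ℝ) < 4 * ((s / 4 : ℕ) : ℝ) + 4 := by exact_mod_cast h3
      linarith
    have h5 : 5 * L - 1 ≤ ((s / 4 : ℕ) : ℝ) := by linarith
    have h6 : (a:ℝ)^((17:ℝ)/5) / 2 ≤ (2:ℝ)^((s / 4 : ℕ)) := by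
      have h7 : (2:ℝ)^((s / 4 : ℕ)) = (2:ℝ)^(((s / 4 : ℕ)) : ℝ) := (Real.rpow_natCast _ _).symm
      rw [h7]
      have h8 : (2:ℝ)^(5 * L - 1) ≤ (2:ℝ)^(((s / 4 : ℕ)) : ℝ) :=
        Real.rpow_le_rpow_of_exponent_le (by norm_num) h5
      refine le_trans ?_ h8
      rw [Real.rpow_sub (by norm_num), Real.rpow_one]
      have h9 : (a:ℝ)^((17:ℝ)/5) ≤ (2:ℝ)^(5 * L) := by
        rw [Real.rpow_def_of_pos ha0, Real.rpow_def_of_pos (by norm_num : (0:ℝ) < 2)]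
        apply Real.exp_le_exp.2
        have := Real.log_two_gt_d9
        rw [← hL]
        nlinarith
      linarith
    have h10 : (a:ℝ) * (a * b + 17) ≤ 18 * (a:ℝ)^((22:ℝ)/7) := by
      have h11 : (a:ℝ) * (a * b) ≤ (a:ℝ)^((22:ℝ)/7) := by
        calc (a:ℝ) * (a * b) ≤ (a:ℝ) * (a * (a:ℝ)^((8:ℝ)/7)) := by gcongr
          _ = (a:ℝ)^((22:ℝ)/7) := by
            rw [show ((22:ℝ)/7) = 1 + (1 + 8/7) by norm_num, Real.rpow_add ha0, Real.rpow_add ha0,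
              Real.rpow_one]
      have h12 : (a:ℝ) ≤ (a:ℝ)^((22:ℝ)/7) := by
        calc (a:ℝ) = (a:ℝ)^(1:ℝ) := (Real.rpow_one _).symm
          _ ≤ (a:ℝ)^((22:ℝ)/7) :=
            Real.rpow_le_rpow_of_exponent_le (by exact_mod_cast ha1) (by norm_num)
      nlinarith
    have h13 : 18 * (a:ℝ)^((22:ℝ)/7) ≤ (a:ℝ)^((17:ℝ)/5) / 2 := by
      have h14 : (a:ℝ)^((17:ℝ)/5) = (a:ℝ)^((9:ℝ)/35) * (a:ℝ)^((22:ℝ)/7) := by
        rw [← Real.rpow_add ha0]; norm_num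
      rw [h14]
      have h15 : (0:ℝ) ≤ (a:ℝ)^((22:ℝ)/7) := Real.rpow_nonneg ha0.le _
      nlinarith
    have h16 : (a:ℝ) * (a * b + 17) ≤ (2:ℝ)^((s / 4 : ℕ)) := le_trans h10 (le_trans h13 h6)
    exact_mod_cast h16

end Vale.Agent.P181.H142
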